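import Mathlib

set_option autoImplicit false
set_option linter.unusedVariables false

open MeasureTheory Set

namespace Crest.Agent.Helper8.S0423Conv

/-- exponential smoothing: `econv a S t = E S(t - a X)` for `X` a mean-one exponential variable -/
noncomputable def econv (a : ℝ) (S : ℝ → ℝ) (t : ℝ) : ℝ :=
  ∫ s in Set.Ioi (0 : ℝ), S (t - a * s) * Real.exp (-s)

/-- four-point form of log-concavity -/
def FourPoint (S : ℝ → ℝ) : Prop :=
  ∀ p q d : ℝ, p ≤ q → 0 ≤ d → S p * S (q + d) ≤ S (p + d) * S q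

theorem fourPoint_base : FourPoint (fun t : ℝ => if t < 0 then (1 : ℝ) else 0) := by
  intro p q d hpq hd
  by_cases h : q + d < 0
  · have h1 : p < 0 := by linarith
    have h2 : p + d < 0 := by linarith
    have h3 : q < 0 := by linarith
    simp [h, h1, h2, h3]
  · have hnn : ∀ t : ℝ, (0 : ℝ) ≤ (if t < 0 then (1 : ℝ) else 0) := by
      intro t; split_ifs <;> norm_num
    simp only [h, if_false, mul_zero]
    exact mul_nonneg (hnn _) (hnn _)

theorem midpoint_of_fourPoint {S : ℝ → ℝ} (hS : FourPoint S) :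
    ∀ x y, S x * S y ≤ S ((x + y) / 2) ^ 2 := by
  have key : ∀ x y, x ≤ y → S x * S y ≤ S ((x + y) / 2) ^ 2 := by
    intro x y hxy
    have h := hS x ((x + y) / 2) ((y - x) / 2) (by linarith) (by linarith)
    have e1 : (x + y) / 2 + (y - x) / 2 = y := by ring
    have e2 : x + (y - x) / 2 = (x + y) / 2 := by ring
    rw [e1, e2] at h
    rw [sq]; exact h
  intro x y
  rcases le_total x y with h | h
  · exact key x y h
  · have := key y x h
    rw [mul_comm, add_comm x y]; exact this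

theorem fourPoint_neg {S : ℝ → ℝ} (hS : FourPoint S) : FourPoint (fun t => S (-t)) := by
  intro p q d hpq hd
  have h := hS (-(q + d)) (-(p + d)) d (by linarith) hd
  have e1 : -(p + d) + d = -p := by ring
  have e2 : -(q + d) + d = -q := by ring
  rw [e1, e2] at h
  show S (-p) * S (-(q + d)) ≤ S (-(p + d)) * S (-q)
  linarith [mul_comm (S (-(q + d))) (S (-p)), mul_comm (S (-q)) (S (-(p + d)))]

theorem integrableOn_econv {S : ℝ → ℝ} (hm : Measurable S) (h0 : ∀ t, 0 ≤ S t)
    (h1 : ∀ t, S t ≤ 1) (a t : ℝ) :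
    IntegrableOn (fun s : ℝ => S (t - a * s) * Real.exp (-s)) (Ioi 0) := by
  unfold IntegrableOn
  refine Integrable.mono' (integrableOn_exp_neg_Ioi 0) ?_ (ae_of_all _ fun s => ?_)
  · exact ((hm.comp (by fun_prop : Measurable fun s : ℝ => t - a * s)).mul
      (by fun_prop)).aestronglyMeasurable
  · rw [Real.norm_eq_abs, abs_mul, abs_of_nonneg (h0 _), abs_of_pos (Real.exp_pos _)]
    exact mul_le_of_le_one_left (Real.exp_pos _).le (h1 _)

theorem econv_nonneg (a : ℝ) {S : ℝ → ℝ} (hm : Measurable S) (h0 : ∀ t, 0 ≤ S t)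
    (h1 : ∀ t, S t ≤ 1) (t : ℝ) : 0 ≤ econv a S t :=
  setIntegral_nonneg measurableSet_Ioi (fun s _ => mul_nonneg (h0 _) (Real.exp_pos _).le)

theorem econv_le_one (a : ℝ) {S : ℝ → ℝ} (hm : Measurable S) (h0 : ∀ t, 0 ≤ S t)
    (h1 : ∀ t, S t ≤ 1) (t : ℝ) : econv a S t ≤ 1 := by
  have h := setIntegral_mono_on (integrableOn_econv hm h0 h1 a t) (integrableOn_exp_neg_Ioi 0)
    measurableSet_Ioi (fun s _ => mul_le_of_le_one_left (Real.exp_pos _).le (h1 _))
  rw [integral_exp_neg_Ioi_zero] at h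
  exact h

theorem antitone_econv (a : ℝ) {S : ℝ → ℝ} (hm : Measurable S) (h0 : ∀ t, 0 ≤ S t)
    (h1 : ∀ t, S t ≤ 1) (hanti : Antitone S) : Antitone (econv a S) := by
  intro t t' htt'
  exact setIntegral_mono_on (integrableOn_econv hm h0 h1 a t') (integrableOn_econv hm h0 h1 a t)
    measurableSet_Ioi
    (fun s _ => mul_le_mul_of_nonneg_right (hanti (by linarith)) (Real.exp_pos _).le)

theorem econv_zero (S : ℝ → ℝ) : econv 0 S = S := by
  funext t
  unfold econv
  simp only [zero_mul, sub_zero]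
  rw [integral_const_mul, integral_exp_neg_Ioi_zero, mul_one]

/-- reflection: the case `a < 0` reduces to `a > 0`. -/
theorem econv_neg (a : ℝ) (S : ℝ → ℝ) (t : ℝ) :
    econv a S t = econv (-a) (fun u => S (-u)) (-t) := by
  unfold econv
  refine setIntegral_congr_fun measurableSet_Ioi (fun s _ => ?_)
  show S (t - a * s) * Real.exp (-s) = S (-(-t - -a * s)) * Real.exp (-s)
  have : -(-t - -a * s) = t - a * s := by ring
  rw [this]

/-- the remainder term in the splitting identity -/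
noncomputable def rem (a d : ℝ) (S : ℝ → ℝ) (t : ℝ) : ℝ :=
  ∫ r in Set.Ioc (0 : ℝ) (d / a), S (t + d - a * r) * Real.exp (-r)

theorem rem_nonneg (a d : ℝ) {S : ℝ → ℝ} (h0 : ∀ t, 0 ≤ S t) (t : ℝ) : 0 ≤ rem a d S t :=
  setIntegral_nonneg measurableSet_Ioc (fun s _ => mul_nonneg (h0 _) (Real.exp_pos _).le)

/-- splitting identity: `U(t+d) = e^{-d/a} U(t) + rem` for `a > 0`, `d ≥ 0`. -/
theorem econv_add {a : ℝ} (ha : 0 < a) {S : ℝ → ℝ} (hm : Measurable S) (h0 : ∀ t, 0 ≤ S t)
    (h1 : ∀ t, S t ≤ 1) {d : ℝ} (hd : 0 ≤ d) (t : ℝ) :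
    econv a S (t + d) = Real.exp (-(d / a)) * econv a S t + rem a d S t := by
  have hda : 0 ≤ d / a := div_nonneg hd ha.le
  have hint := integrableOn_econv hm h0 h1 a (t + d)
  have hsplit : ∫ s in Ioi (0 : ℝ), S (t + d - a * s) * Real.exp (-s)
      = (∫ s in Ioc (0 : ℝ) (d / a), S (t + d - a * s) * Real.exp (-s))
        + ∫ s in Ioi (d / a), S (t + d - a * s) * Real.exp (-s) := by
    rw [← setIntegral_union (Ioc_disjoint_Ioi le_rfl) measurableSet_Ioi
      (hint.mono_set Ioc_subset_Ioi_self) (hint.mono_set (Ioi_subset_Ioi hda)),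
      Ioc_union_Ioi_eq_Ioi hda]
  have hmp : MeasurePreserving (fun s : ℝ => s + d / a) volume volume :=
    measurePreserving_add_right volume (d / a)
  have hemb : MeasurableEmbedding (fun s : ℝ => s + d / a) :=
    (MeasurableEquiv.addRight (d / a)).measurableEmbedding
  have htr := hmp.setIntegral_preimage_emb hemb
    (fun s : ℝ => S (t + d - a * s) * Real.exp (-s)) (Ioi (d / a))
  have hpre : (fun s : ℝ => s + d / a) ⁻¹' Ioi (d / a) = Ioi 0 := by
    ext s; simp
  rw [hpre] at htr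
  have htr' : ∫ s in Ioi (d / a), S (t + d - a * s) * Real.exp (-s)
      = ∫ s in Ioi (0 : ℝ), S (t + d - a * (s + d / a)) * Real.exp (-(s + d / a)) := htr.symm
  have hcongr : ∫ s in Ioi (0 : ℝ), S (t + d - a * (s + d / a)) * Real.exp (-(s + d / a))
      = ∫ s in Ioi (0 : ℝ), Real.exp (-(d / a)) * (S (t - a * s) * Real.exp (-s)) := by
    refine setIntegral_congr_fun measurableSet_Ioi (fun s _ => ?_)
    have e1 : t + d - a * (s + d / a) = t - a * s := by field_simp; ring
    have e2 : Real.exp (-(s + d / a)) = Real.exp (-(d / a)) * Real.exp (-s) := by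
      rw [← Real.exp_add]; ring_nf
    show S (t + d - a * (s + d / a)) * Real.exp (-(s + d / a))
      = Real.exp (-(d / a)) * (S (t - a * s) * Real.exp (-s))
    rw [e1, e2]; ring
  have hcm : ∫ s in Ioi (0 : ℝ), Real.exp (-(d / a)) * (S (t - a * s) * Real.exp (-s))
      = Real.exp (-(d / a)) * ∫ s in Ioi (0 : ℝ), S (t - a * s) * Real.exp (-s) :=
    integral_const_mul _ _
  unfold econv rem
  rw [hsplit, htr', hcongr, hcm]
  ring

theorem fourPoint_econv_pos {a : ℝ} (ha : 0 < a) {S : ℝ → ℝ} (hm : Measurable S)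
    (h0 : ∀ t, 0 ≤ S t) (h1 : ∀ t, S t ≤ 1) (hS : FourPoint S) : FourPoint (econv a S) := by
  intro p q d hpq hd
  have hda : 0 ≤ d / a := div_nonneg hd ha.le
  have key : econv a S p * rem a d S q ≤ rem a d S p * econv a S q := by
    have e1 : econv a S p * rem a d S q
        = ∫ r in Ioc (0 : ℝ) (d / a), econv a S p * (S (q + d - a * r) * Real.exp (-r)) := by
      unfold rem; rw [integral_const_mul]
    have e2 : rem a d S p * econv a S q
        = ∫ r in Ioc (0 : ℝ) (d / a), (S (p + d - a * r) * Real.exp (-r)) * econv a S q := by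
      unfold rem; rw [integral_mul_const]
    rw [e1, e2]
    refine setIntegral_mono_on
      (((integrableOn_econv hm h0 h1 a (q + d)).mono_set Ioc_subset_Ioi_self).const_mul _)
      (((integrableOn_econv hm h0 h1 a (p + d)).mono_set Ioc_subset_Ioi_self).mul_const _)
      measurableSet_Ioc (fun r hr => ?_)
    have har : a * r ≤ d := by
      have := (le_div_iff₀ ha).mp hr.2
      linarith
    have inner : econv a S p * S (q + d - a * r) ≤ S (p + d - a * r) * econv a S q := by
      have e3 : econv a S p * S (q + d - a * r)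
          = ∫ s in Ioi (0 : ℝ), (S (p - a * s) * Real.exp (-s)) * S (q + d - a * r) := by
        unfold econv; rw [integral_mul_const]
      have e4 : S (p + d - a * r) * econv a S q
          = ∫ s in Ioi (0 : ℝ), S (p + d - a * r) * (S (q - a * s) * Real.exp (-s)) := by
        unfold econv; rw [integral_const_mul]
      rw [e3, e4]
      refine setIntegral_mono_on ((integrableOn_econv hm h0 h1 a p).mul_const _)
        ((integrableOn_econv hm h0 h1 a q).const_mul _) measurableSet_Ioi (fun s hs => ?_)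
      have hs0 : 0 < s := hs
      have has : 0 ≤ a * s := (mul_pos ha hs0).le
      have h4 := hS (p - a * s) (q - a * s) (d - a * r + a * s) (by linarith) (by linarith)
      have e5 : q - a * s + (d - a * r + a * s) = q + d - a * r := by ring
      have e6 : p - a * s + (d - a * r + a * s) = p + d - a * r := by ring
      rw [e5, e6] at h4
      have hexp := (Real.exp_pos (-s)).le
      linarith [mul_le_mul_of_nonneg_right h4 hexp]
    have hexp := (Real.exp_pos (-r)).le
    linarith [mul_le_mul_of_nonneg_right inner hexp]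
  have hq := econv_add ha hm h0 h1 hd q
  have hp := econv_add ha hm h0 h1 hd p
  rw [hq, hp]
  linarith [key]

/-- **Preservation of four-point log-concavity under exponential smoothing.** -/
theorem fourPoint_econv (a : ℝ) {S : ℝ → ℝ} (hm : Measurable S) (h0 : ∀ t, 0 ≤ S t)
    (h1 : ∀ t, S t ≤ 1) (hS : FourPoint S) : FourPoint (econv a S) := by
  rcases lt_trichotomy a 0 with h | h | h
  · have hc := fourPoint_econv_pos (neg_pos.mpr h) (S := fun u => S (-u))
      (hm.comp measurable_neg) (fun t => h0 _) (fun t => h1 _) (fourPoint_neg hS)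
    have e : econv a S = fun t => econv (-a) (fun u => S (-u)) (-t) := funext (econv_neg a S)
    rw [e]
    exact fourPoint_neg hc
  · subst h; rw [econv_zero]; exact hS
  · exact fourPoint_econv_pos h hm h0 h1 hS

theorem rem_le {a : ℝ} (ha : 0 < a) {S : ℝ → ℝ} (hm : Measurable S) (h0 : ∀ t, 0 ≤ S t)
    (h1 : ∀ t, S t ≤ 1) {d : ℝ} (hd : 0 ≤ d) (t : ℝ) : rem a d S t ≤ d / a := by
  have hda : 0 ≤ d / a := div_nonneg hd ha.le
  have h : rem a d S t ≤ ∫ r in Ioc (0 : ℝ) (d / a), (1 : ℝ) := by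
    refine setIntegral_mono_on
      ((integrableOn_econv hm h0 h1 a (t + d)).mono_set Ioc_subset_Ioi_self)
      (integrableOn_const (by simp)) measurableSet_Ioc (fun r hr => ?_)
    have : Real.exp (-r) ≤ 1 := Real.exp_le_one_iff.mpr (by linarith [hr.1])
    calc S (t + d - a * r) * Real.exp (-r) ≤ 1 * 1 :=
          mul_le_mul (h1 _) this (Real.exp_pos _).le zero_le_one
      _ = 1 := mul_one 1
  have e : ∫ r in Ioc (0 : ℝ) (d / a), (1 : ℝ) = d / a := by
    rw [← intervalIntegral.integral_of_le hda]; simp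
  linarith

theorem abs_econv_add_sub_le {a : ℝ} (ha : 0 < a) {S : ℝ → ℝ} (hm : Measurable S)
    (h0 : ∀ t, 0 ≤ S t) (h1 : ∀ t, S t ≤ 1) {d : ℝ} (hd : 0 ≤ d) (t : ℝ) :
    |econv a S (t + d) - econv a S t| ≤ d / a := by
  have hda : 0 ≤ d / a := div_nonneg hd ha.le
  have hadd := econv_add ha hm h0 h1 hd t
  have hr0 := rem_nonneg a d h0 t
  have hr1 := rem_le ha hm h0 h1 hd t
  have hE1 : Real.exp (-(d / a)) ≤ 1 := Real.exp_le_one_iff.mpr (by linarith)
  have hE2 : 1 - d / a ≤ Real.exp (-(d / a)) := by linarith [Real.add_one_le_exp (-(d / a))]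
  have hU0 := econv_nonneg a hm h0 h1 t
  have hU1 := econv_le_one a hm h0 h1 t
  rw [abs_le]
  constructor
  · nlinarith [mul_nonneg (sub_nonneg.mpr hE2) hU0, mul_nonneg hda (sub_nonneg.mpr hU1)]
  · nlinarith [mul_nonneg (sub_nonneg.mpr hE1) hU0]

/-- `econv a S` is `1/a`-Lipschitz for `a > 0`. -/
theorem abs_econv_sub_le {a : ℝ} (ha : 0 < a) {S : ℝ → ℝ} (hm : Measurable S)
    (h0 : ∀ t, 0 ≤ S t) (h1 : ∀ t, S t ≤ 1) (x y : ℝ) :
    |econv a S x - econv a S y| ≤ 1 / a * |x - y| := by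
  have key : ∀ x y : ℝ, x ≤ y → |econv a S x - econv a S y| ≤ 1 / a * |x - y| := by
    intro x y hxy
    have h := abs_econv_add_sub_le ha hm h0 h1 (sub_nonneg.mpr hxy) x
    have e : x + (y - x) = y := by ring
    rw [e] at h
    rw [abs_sub_comm, abs_sub_comm x y, abs_of_nonneg (sub_nonneg.mpr hxy)]
    calc |econv a S y - econv a S x| ≤ (y - x) / a := h
      _ = 1 / a * (y - x) := by ring
  rcases le_total x y with h | h
  · exact key x y h
  · rw [abs_sub_comm, abs_sub_comm x y]; exact key y x h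

theorem continuous_econv_pos {a : ℝ} (ha : 0 < a) {S : ℝ → ℝ} (hm : Measurable S)
    (h0 : ∀ t, 0 ≤ S t) (h1 : ∀ t, S t ≤ 1) : Continuous (econv a S) := by
  refine Metric.continuous_iff.mpr (fun x ε hε => ⟨a * ε, mul_pos ha hε, fun y hy => ?_⟩)
  rw [Real.dist_eq] at hy ⊢
  calc |econv a S y - econv a S x| ≤ 1 / a * |y - x| := abs_econv_sub_le ha hm h0 h1 y x
    _ < 1 / a * (a * ε) := mul_lt_mul_of_pos_left hy (by positivity)
    _ = ε := by field_simp

theorem continuous_econv {a : ℝ} (ha : a ≠ 0) {S : ℝ → ℝ} (hm : Measurable S)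
    (h0 : ∀ t, 0 ≤ S t) (h1 : ∀ t, S t ≤ 1) : Continuous (econv a S) := by
  rcases lt_or_gt_of_ne ha with h | h
  · have hc := continuous_econv_pos (neg_pos.mpr h) (S := fun u => S (-u))
      (hm.comp measurable_neg) (fun t => h0 _) (fun t => h1 _)
    have e : econv a S = fun t => econv (-a) (fun u => S (-u)) (-t) := funext (econv_neg a S)
    rw [e]
    exact hc.comp continuous_neg
  · exact continuous_econv_pos h hm h0 h1

theorem measurable_econv (a : ℝ) {S : ℝ → ℝ} (hm : Measurable S) (h0 : ∀ t, 0 ≤ S t)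
    (h1 : ∀ t, S t ≤ 1) : Measurable (econv a S) := by
  by_cases ha : a = 0
  · subst ha; rw [econv_zero]; exact hm
  · exact (continuous_econv ha hm h0 h1).measurable

/-! ### Positivity -/

/-- if the integrand is positive on an interval `Ioo c δ ⊆ (0, ∞)`, then `econv a S t > 0`. -/
theorem econv_pos_of_Ioo (a : ℝ) {S : ℝ → ℝ} (hm : Measurable S) (h0 : ∀ t, 0 ≤ S t)
    (h1 : ∀ t, S t ≤ 1) (t : ℝ) {c δ : ℝ} (hc : 0 ≤ c) (hδ : c < δ)
    (h : ∀ s ∈ Ioo c δ, 0 < S (t - a * s)) : 0 < econv a S t := by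
  unfold econv
  rw [setIntegral_pos_iff_support_of_nonneg_ae
    (ae_of_all _ fun s => mul_nonneg (h0 _) (Real.exp_pos _).le) (integrableOn_econv hm h0 h1 a t)]
  have hsub : Ioo c δ ⊆ Function.support (fun s : ℝ => S (t - a * s) * Real.exp (-s)) ∩ Ioi 0 := by
    intro s hs
    refine ⟨?_, lt_of_le_of_lt hc hs.1⟩
    simp only [Function.mem_support]
    exact (mul_pos (h s hs) (Real.exp_pos _)).ne'
  refine lt_of_lt_of_le ?_ (measure_mono hsub)
  rw [Real.volume_Ioo]
  simpa using hδ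

theorem econv_pos_of_pos (a : ℝ) {S : ℝ → ℝ} (hm : Measurable S) (h0 : ∀ t, 0 ≤ S t)
    (h1 : ∀ t, S t ≤ 1) (hpos : ∀ t, 0 < S t) (t : ℝ) : 0 < econv a S t :=
  econv_pos_of_Ioo a hm h0 h1 t le_rfl zero_lt_one (fun _ _ => hpos _)

theorem econv_pos_of_neg (a : ℝ) {S : ℝ → ℝ} (hm : Measurable S) (h0 : ∀ t, 0 ≤ S t)
    (h1 : ∀ t, S t ≤ 1) (hpos : ∀ t < 0, 0 < S t) : ∀ t < 0, 0 < econv a S t := by
  intro t ht
  rcases le_or_gt 0 a with ha | ha
  · refine econv_pos_of_Ioo a hm h0 h1 t le_rfl zero_lt_one (fun s hs => hpos _ ?_)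
    have : 0 ≤ a * s := mul_nonneg ha hs.1.le
    linarith
  · have hδ : 0 < t / a := div_pos_of_neg_of_neg ht ha
    refine econv_pos_of_Ioo a hm h0 h1 t le_rfl hδ (fun s hs => hpos _ ?_)
    have h2 : t < a * s := by
      have := (lt_div_iff_of_neg ha).mp hs.2
      linarith
    linarith

theorem econv_pos_of_antitone {a : ℝ} (ha : 0 < a) {S : ℝ → ℝ} (hm : Measurable S)
    (h0 : ∀ t, 0 ≤ S t) (h1 : ∀ t, S t ≤ 1) (hanti : Antitone S) {u : ℝ} (hu : 0 < S u)
    (t : ℝ) : 0 < econv a S t := by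
  refine econv_pos_of_Ioo a hm h0 h1 t (c := max 0 ((t - u) / a)) (δ := max 0 ((t - u) / a) + 1)
    (le_max_left _ _) (by linarith) (fun s hs => lt_of_lt_of_le hu (hanti ?_))
  have h2 : (t - u) / a < s := lt_of_le_of_lt (le_max_right _ _) hs.1
  have h3 : t - u < s * a := (div_lt_iff₀ ha).mp h2
  linarith

end Crest.Agent.Helper8.S0423Conv
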