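import Mathlib
import Crest.Agent.Helper7.Area

set_option autoImplicit false

open MeasureTheory
open scoped ENNReal

namespace Crest.Agent.Helper8.Ruled

open Crest.Agent.Helper7

/-- One sheared square tile gives one cylinder with relatively open bounded base. -/
theorem tile_cylinder (h : ℝ) (hh : 0 < h) (c a b g : E2) (hab : ‖b‖ = ‖a‖ ∧ inner ℝ a b = 0)
    (η : ℝ) (hη : 0 < η) :
    ∃ (u : E3) (Bs : Set E3), ‖u‖ = 1 ∧ Bornology.IsBounded Bs ∧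
      (∃ O : Set E3, IsOpen O ∧ Bs = O ∩ {x | inner ℝ x u = 0}) ∧
      (∀ (x s t : ℝ), s ∈ Set.Icc (0 : ℝ) 1 → t ∈ Set.Icc (0 : ℝ) 1 → ∀ ξ : E2,
        ξ = c + s • a + t • b + x • g →
        ∃ y ∈ Bs, ∃ τ : ℝ, (!₂[x, ξ 0, h * ξ 1] : E3) = y + τ • u) ∧
      (μHE[2] Bs).toReal ≤ h * (‖a‖ ^ 2 / Real.sqrt (1 + g 0 ^ 2 + h ^ 2 * g 1 ^ 2)) + η := by
  set d : E3 := !₂[1, g 0, h * g 1] with hd
  have hdn2 : ‖d‖ ^ 2 = 1 + g 0 ^ 2 + h ^ 2 * g 1 ^ 2 := by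
    rw [norm_sq_E3]; simp [hd]; ring
  have hpos : 0 < 1 + g 0 ^ 2 + h ^ 2 * g 1 ^ 2 := by positivity
  have hdn : ‖d‖ = Real.sqrt (1 + g 0 ^ 2 + h ^ 2 * g 1 ^ 2) := by
    rw [← hdn2, Real.sqrt_sq (norm_nonneg _)]
  have hdpos : 0 < ‖d‖ := by rw [hdn]; exact Real.sqrt_pos.mpr hpos
  set u : E3 := (‖d‖)⁻¹ • d with hu
  have hun : ‖u‖ = 1 := by
    rw [hu, norm_smul, norm_inv, norm_norm, inv_mul_cancel₀ hdpos.ne']
  have hdu : d = ‖d‖ • u := by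
    rw [hu, smul_smul, mul_inv_cancel₀ hdpos.ne', one_smul]
  set C : E3 := !₂[0, c 0, h * c 1] with hC
  set A : E3 := !₂[0, a 0, h * a 1] with hA
  set Bv : E3 := !₂[0, b 0, h * b 1] with hBv
  set P : Set E3 := {x | ∃ s ∈ Set.Icc (0 : ℝ) 1, ∃ t ∈ Set.Icc (0 : ℝ) 1,
    x = (C - inner ℝ C u • u) + s • (A - inner ℝ A u • u) + t • (Bv - inner ℝ Bv u • u)} with hP
  have hPc : IsCompact P := by
    have : P = (fun q : ℝ × ℝ => (C - inner ℝ C u • u) + q.1 • (A - inner ℝ A u • u)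
        + q.2 • (Bv - inner ℝ Bv u • u)) '' (Set.Icc (0 : ℝ) 1 ×ˢ Set.Icc (0 : ℝ) 1) := by
      ext x; constructor
      · rintro ⟨s, hs, t, ht, rfl⟩; exact ⟨(s, t), ⟨hs, ht⟩, rfl⟩
      · rintro ⟨⟨s, t⟩, ⟨hs, ht⟩, rfl⟩; exact ⟨s, hs, t, ht, rfl⟩
    rw [this]
    exact (isCompact_Icc.prod isCompact_Icc).image (by fun_prop)
  have hPu : ∀ x ∈ P, inner ℝ x u = 0 := by
    rintro x ⟨s, hs, t, ht, rfl⟩
    rw [inner_add_left, inner_add_left, real_inner_smul_left, real_inner_smul_left,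
      inner_proj_self u C hun, inner_proj_self u A hun, inner_proj_self u Bv hun]
    ring
  have habs : |a 0 * b 1 - a 1 * b 0| = ‖a‖ ^ 2 := by
    have hb2 : ‖b‖ ^ 2 = ‖a‖ ^ 2 := by rw [hab.1]
    have hin := hab.2
    rw [norm_sq_E2, norm_sq_E2] at hb2
    rw [inner_E2] at hin
    have h1 : (a 0 * b 1 - a 1 * b 0) ^ 2 = (‖a‖ ^ 2) ^ 2 := by
      rw [norm_sq_E2]
      linear_combination (a 0 ^ 2 + a 1 ^ 2) * hb2 - (a 0 * b 0 + a 1 * b 1) * hin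
    rw [← abs_of_nonneg (sq_nonneg ‖a‖)]
    exact (sq_eq_sq_iff_abs_eq_abs _ _).mp h1
  have hdet : det3 A Bv u = (‖d‖)⁻¹ * (h * (a 0 * b 1 - a 1 * b 0)) := by
    unfold det3
    simp [hu, hA, hBv, hd]
    ring
  have hPm : μHE[2] P = ENNReal.ofReal
      (h * (‖a‖ ^ 2 / Real.sqrt (1 + g 0 ^ 2 + h ^ 2 * g 1 ^ 2))) := by
    rw [hP, muHE_parallelogram, gram_proj u A Bv hun, Real.sqrt_sq_eq_abs, hdet, abs_mul, abs_mul,
      abs_inv, abs_norm, abs_of_pos hh, habs, hdn]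
    congr 1
    field_simp
  obtain ⟨O, hO, hOb, hsub, hmeas⟩ := exists_open_enlargement u hun P hPc hPu η hη
  refine ⟨u, O ∩ {x | inner ℝ x u = 0}, hun, hOb, ⟨O, hO, rfl⟩, ?_, ?_⟩
  · intro x s t hs ht ξ hξ
    refine ⟨(C - inner ℝ C u • u) + s • (A - inner ℝ A u • u) + t • (Bv - inner ℝ Bv u • u),
      hsub ⟨s, hs, t, ht, rfl⟩,
      inner ℝ C u + s * inner ℝ A u + t * inner ℝ Bv u + x * ‖d‖, ?_⟩
    have hz : (!₂[x, ξ 0, h * ξ 1] : E3) = C + s • A + t • Bv + x • d := by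
      subst hξ
      ext i
      fin_cases i <;> simp [hC, hA, hBv, hd] <;> ring
    rw [hz]
    nth_rewrite 1 [hdu]
    module
  · rw [hPm, ENNReal.toReal_ofReal (by positivity)] at hmeas
    exact hmeas

/-- From a cover by sheared square tiles (the conclusion of S0326 with `ε / (2h)`) to a cover by
cylinders with relatively open bases. -/
theorem cover_of_tiles (h M : ℝ) (hh : 0 < h) (D : Set E2) (V : E2 → E2) (ε : ℝ) (hε : 0 < ε)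
    (I : ℝ) (k : ℕ) (c a b g : Fin k → E2)
    (hab : ∀ i, a i ≠ 0 ∧ ‖b i‖ = ‖a i‖ ∧ inner ℝ (a i) (b i) = 0)
    (hcov : {z : ℝ × E2 | ∃ p ∈ D, |z.1| ≤ M ∧ z.2 = p + z.1 • V p} ⊆
        ⋃ i, {z : ℝ × E2 | ∃ x ∈ Set.Icc (0 : ℝ) 1, ∃ y ∈ Set.Icc (0 : ℝ) 1,
          z.2 = c i + x • a i + y • b i + z.1 • g i})
    (hsum : ∑ i, ‖a i‖ ^ 2 / Real.sqrt (1 + (g i 0) ^ 2 + h ^ 2 * (g i 1) ^ 2)
      ≤ I + ε / (2 * h)) :
    ∃ (k : ℕ) (u : Fin k → E3) (B : Fin k → Set E3),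
      (∀ i, ‖u i‖ = 1) ∧
      (∀ i, Bornology.IsBounded (B i) ∧ ∃ O : Set E3, IsOpen O ∧
        B i = O ∩ {x | inner ℝ x (u i) = 0}) ∧
      {z : E3 | ∃ p ∈ D, ∃ x : ℝ, |x| ≤ M ∧
          z = !₂[x, p 0 + x * V p 0, h * (p 1 + x * V p 1)]} ⊆
        ⋃ i, {z : E3 | ∃ y ∈ B i, ∃ τ : ℝ, z = y + τ • u i} ∧
      ∑ i, (μHE[2] (B i)).toReal ≤ h * I + ε := by
  have hk : (0 : ℝ) < (k : ℝ) + 1 := by positivity
  have hη : 0 < ε / (2 * ((k : ℝ) + 1)) := by positivity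
  choose u Bs hu hBb hBO hBcov hBm using fun i =>
    tile_cylinder h hh (c i) (a i) (b i) (g i) ⟨(hab i).2.1, (hab i).2.2⟩
      (ε / (2 * ((k : ℝ) + 1))) hη
  refine ⟨k, u, Bs, hu, fun i => ⟨hBb i, hBO i⟩, ?_, ?_⟩
  · rintro z ⟨p, hp, x, hx, rfl⟩
    have hmem : ((x, p + x • V p) : ℝ × E2) ∈
        {z : ℝ × E2 | ∃ p ∈ D, |z.1| ≤ M ∧ z.2 = p + z.1 • V p} := ⟨p, hp, hx, rfl⟩
    obtain ⟨i, s, hs, t, ht, hξ⟩ := Set.mem_iUnion.mp (hcov hmem)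
    refine Set.mem_iUnion.mpr ⟨i, ?_⟩
    have key := hBcov i x s t hs ht (p + x • V p) hξ
    simpa using key
  · have h2 : (k : ℝ) * (ε / (2 * ((k : ℝ) + 1))) ≤ ε / 2 := by
      have e : ε / 2 - (k : ℝ) * (ε / (2 * ((k : ℝ) + 1))) = ε / (2 * ((k : ℝ) + 1)) := by
        field_simp; ring
      linarith
    calc ∑ i, (μHE[2] (Bs i)).toReal
        ≤ ∑ i, (h * (‖a i‖ ^ 2 / Real.sqrt (1 + g i 0 ^ 2 + h ^ 2 * g i 1 ^ 2))
            + ε / (2 * ((k : ℝ) + 1))) := Finset.sum_le_sum (fun i _ => hBm i)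
      _ = h * ∑ i, ‖a i‖ ^ 2 / Real.sqrt (1 + g i 0 ^ 2 + h ^ 2 * g i 1 ^ 2)
            + (k : ℝ) * (ε / (2 * ((k : ℝ) + 1))) := by
          rw [Finset.sum_add_distrib, ← Finset.mul_sum]; simp
      _ ≤ h * (I + ε / (2 * h)) + ε / 2 := by
          have h1 := mul_le_mul_of_nonneg_left hsum hh.le
          linarith
      _ = h * I + ε := by field_simp; ring

end Crest.Agent.Helper8.Ruled
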