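import Mathlib
import Crest.Prelude.Def_TruncExpWeight

set_option autoImplicit false

open MeasureTheory Set

namespace Crest.Agent.Helper8.S0423Approx

open Crest.AlgGeometry

lemma tew_le_one (s : ℝ) : truncExpWeight s ≤ 1 := by
  unfold truncExpWeight
  split_ifs with h
  · exact le_rfl
  · have h1 : 1 + s ≤ Real.exp s := by linarith [Real.add_one_le_exp s]
    calc (1 + s) * Real.exp (-s) ≤ Real.exp s * Real.exp (-s) :=
          mul_le_mul_of_nonneg_right h1 (Real.exp_pos _).le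
      _ = 1 := by rw [← Real.exp_add]; simp

lemma tew_nonneg (s : ℝ) : 0 ≤ truncExpWeight s := by
  unfold truncExpWeight
  split_ifs with h
  · exact zero_le_one
  · have : 0 < s := not_le.mp h
    positivity

lemma tew_of_nonpos {s : ℝ} (h : s ≤ 0) : truncExpWeight s = 1 := by
  unfold truncExpWeight; rw [if_pos h]

lemma tew_of_pos {s : ℝ} (h : 0 < s) : truncExpWeight s = (1 + s) * Real.exp (-s) := by
  unfold truncExpWeight; rw [if_neg (not_le.mpr h)]

lemma measurable_tew : Measurable truncExpWeight := by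
  show Measurable (fun y : ℝ => if y ≤ 0 then (1 : ℝ) else (1 + y) * Real.exp (-y))
  exact Measurable.ite measurableSet_Iic measurable_const (by fun_prop)

/-- `phi u = (1 - g (2u)) e^{-u}` -/
noncomputable def phi (u : ℝ) : ℝ := (1 - truncExpWeight (2 * u)) * Real.exp (-u)

lemma phi_nonneg (u : ℝ) : 0 ≤ phi u :=
  mul_nonneg (sub_nonneg.mpr (tew_le_one _)) (Real.exp_pos _).le

lemma phi_of_nonpos {u : ℝ} (h : u ≤ 0) : phi u = 0 := by
  unfold phi; rw [tew_of_nonpos (by linarith)]; simp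

lemma phi_of_pos {u : ℝ} (h : 0 < u) :
    phi u = Real.exp (-(1 * u)) - (u ^ ((1 : ℝ) - 1) * Real.exp (-(3 * u))
      + 2 * (u ^ ((2 : ℝ) - 1) * Real.exp (-(3 * u)))) := by
  unfold phi
  rw [tew_of_pos (by linarith)]
  have e1 : Real.exp (-(2 * u)) * Real.exp (-u) = Real.exp (-(3 * u)) := by
    rw [← Real.exp_add]; ring_nf
  have e2 : u ^ ((1 : ℝ) - 1) = 1 := by norm_num
  have e3 : u ^ ((2 : ℝ) - 1) = u := by norm_num
  rw [e2, e3, one_mul, one_mul]
  calc (1 - (1 + 2 * u) * Real.exp (-(2 * u))) * Real.exp (-u)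
      = Real.exp (-u) - (1 + 2 * u) * (Real.exp (-(2 * u)) * Real.exp (-u)) := by ring
    _ = Real.exp (-u) - (Real.exp (-(3 * u)) + 2 * (u * Real.exp (-(3 * u)))) := by rw [e1]; ring

lemma integral_gamma_form {a r : ℝ} (ha : 0 < a) (hr : 0 < r) :
    IntegrableOn (fun t : ℝ => t ^ (a - 1) * Real.exp (-(r * t))) (Ioi 0) := by
  apply Integrable.of_integral_ne_zero
  rw [Real.integral_rpow_mul_exp_neg_mul_Ioi ha hr]
  have := Real.Gamma_pos_of_pos ha
  positivity

lemma integral_phi : ∫ u in Ioi (0 : ℝ), phi u = 4 / 9 := by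
  rw [setIntegral_congr_fun measurableSet_Ioi (fun u hu => phi_of_pos hu)]
  have i1 : IntegrableOn (fun u : ℝ => Real.exp (-(1 * u))) (Ioi 0) := by
    have := integral_gamma_form (a := 1) (r := 1) one_pos one_pos
    simpa using this
  have i2 := integral_gamma_form (a := 1) (r := 3) one_pos (by norm_num)
  have i3 := integral_gamma_form (a := 2) (r := 3) two_pos (by norm_num)
  have hadd : IntegrableOn (fun u : ℝ => u ^ ((1 : ℝ) - 1) * Real.exp (-(3 * u))
      + 2 * (u ^ ((2 : ℝ) - 1) * Real.exp (-(3 * u)))) (Ioi 0) := i2.add (i3.const_mul 2)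
  rw [integral_sub i1 hadd, integral_add i2 (i3.const_mul 2),
    integral_const_mul, Real.integral_rpow_mul_exp_neg_mul_Ioi one_pos (by norm_num : (0:ℝ) < 3),
    Real.integral_rpow_mul_exp_neg_mul_Ioi two_pos (by norm_num : (0:ℝ) < 3)]
  have h1 : ∫ u in Ioi (0 : ℝ), Real.exp (-(1 * u)) = 1 := by
    have := Real.integral_rpow_mul_exp_neg_mul_Ioi (a := 1) (r := 1) one_pos one_pos
    simpa using this
  rw [h1, Real.Gamma_one, Real.Gamma_two, Real.rpow_one, Real.rpow_two]
  norm_num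

lemma integrableOn_phi : IntegrableOn phi (Ioi 0) := by
  apply Integrable.of_integral_ne_zero
  rw [integral_phi]; norm_num

lemma integrable_phi : Integrable phi :=
  integrableOn_phi.integrable_of_forall_notMem_eq_zero
    (fun _ hu => phi_of_nonpos (not_lt.mp hu))

lemma integral_phi_univ : ∫ u, phi u = 4 / 9 := by
  rw [← integral_phi]
  exact (setIntegral_eq_integral_of_forall_compl_eq_zero
    (fun _ hu => phi_of_nonpos (not_lt.mp hu))).symm

/-- one-dimensional lower bound -/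
lemma one_dim (b : ℝ) :
    1 - 4 / 9 * Real.exp (b / 2) ≤
      ∫ t in Ioi (0 : ℝ), truncExpWeight (b + 2 * t) * Real.exp (-t) := by
  -- the complementary integrand is a translate of `phi`
  have hpt : ∀ t : ℝ, truncExpWeight (b + 2 * t) * Real.exp (-t)
      = Real.exp (-t) - Real.exp (b / 2) * phi (t + b / 2) := by
    intro t
    unfold phi
    have e1 : Real.exp (b / 2) * Real.exp (-(t + b / 2)) = Real.exp (-t) := by
      rw [← Real.exp_add]; ring_nf
    have e2 : 2 * (t + b / 2) = b + 2 * t := by ring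
    rw [e2]
    calc truncExpWeight (b + 2 * t) * Real.exp (-t)
        = Real.exp (-t) - (1 - truncExpWeight (b + 2 * t)) * Real.exp (-t) := by ring
      _ = Real.exp (-t) - (1 - truncExpWeight (b + 2 * t)) *
            (Real.exp (b / 2) * Real.exp (-(t + b / 2))) := by rw [e1]
      _ = _ := by ring
  simp_rw [hpt]
  have hmp : MeasurePreserving (fun t : ℝ => t + b / 2) volume volume :=
    measurePreserving_add_right volume (b / 2)
  have hemb : MeasurableEmbedding (fun t : ℝ => t + b / 2) :=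
    (MeasurableEquiv.addRight (b / 2)).measurableEmbedding
  have htr : ∫ t in Ioi (0 : ℝ), phi (t + b / 2) = ∫ u in Ioi (b / 2), phi u := by
    have := hmp.setIntegral_preimage_emb hemb phi (Ioi (b / 2))
    simpa using this
  have hle : ∫ u in Ioi (b / 2), phi u ≤ 4 / 9 := by
    rw [← integral_phi_univ]
    exact setIntegral_le_integral integrable_phi (ae_of_all _ phi_nonneg)
  have i1 : IntegrableOn (fun t : ℝ => Real.exp (-t)) (Ioi 0) := integrableOn_exp_neg_Ioi 0
  have i2 : IntegrableOn (fun t : ℝ => phi (t + b / 2)) (Ioi 0) :=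
    (integrable_phi.comp_add_right (b / 2)).integrableOn
  rw [integral_sub i1 (i2.const_mul _), integral_exp_neg_Ioi_zero, integral_const_mul, htr]
  have := Real.exp_pos (b / 2)
  nlinarith

/-! ### The product part -/

lemma exp_sum_eq_prod {n : ℕ} (r : ℝ) (x : Fin n → ℝ) :
    Real.exp (-(r * ∑ j, x j)) = ∏ j, Real.exp (-(r * x j)) := by
  rw [← Real.exp_sum, Finset.mul_sum, Finset.sum_neg_distrib]

lemma integral_exp_neg_mul_Ioi_zero {r : ℝ} (hr : 0 < r) :
    ∫ x in Ioi (0 : ℝ), Real.exp (-(r * x)) = 1 / r := by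
  have h := integral_exp_mul_Ioi (a := -r) (by linarith) 0
  have h2 : (fun x : ℝ => Real.exp (-(r * x))) = fun x => Real.exp (-r * x) := by
    funext x; rw [neg_mul]
  rw [h2, h]
  simp

lemma integrable_exp_neg_mul {r : ℝ} (hr : 0 < r) :
    Integrable (fun x : ℝ => Real.exp (-(r * x))) (volume.restrict (Ioi 0)) := by
  have h := integrableOn_exp_mul_Ioi (a := -r) (by linarith) 0
  have h2 : (fun x : ℝ => Real.exp (-(r * x))) = fun x => Real.exp (-r * x) := by
    funext x; rw [neg_mul]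
  rw [h2]; exact h

lemma integral_pi_exp {n : ℕ} {r : ℝ} (hr : 0 < r) :
    ∫ x : Fin n → ℝ, Real.exp (-(r * ∑ j, x j))
      ∂(Measure.pi fun _ : Fin n => (volume : Measure ℝ).restrict (Ioi 0)) = (1 / r) ^ n := by
  simp_rw [exp_sum_eq_prod]
  rw [integral_fintype_prod_eq_pow (fun x : ℝ => Real.exp (-(r * x))),
    integral_exp_neg_mul_Ioi_zero hr, Fintype.card_fin]

lemma integrable_pi_exp {n : ℕ} {r : ℝ} (hr : 0 < r) :
    Integrable (fun x : Fin n → ℝ => Real.exp (-(r * ∑ j, x j)))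
      (Measure.pi fun _ : Fin n => (volume : Measure ℝ).restrict (Ioi 0)) := by
  simp_rw [exp_sum_eq_prod]
  exact Integrable.fintype_prod (f := fun _ (x : ℝ) => Real.exp (-(r * x)))
    (fun _ => integrable_exp_neg_mul hr)

/-- the integrand transported to the product space `ℝ × (Fin n → ℝ)` -/
noncomputable def Fp (n : ℕ) (p : ℝ × (Fin n → ℝ)) : ℝ :=
  truncExpWeight (4 / 3 - 2 / (n : ℝ) * ∑ j, p.2 j + 2 * p.1) * Real.exp (-p.1) *
    Real.exp (-(1 * ∑ j, p.2 j))

lemma measurable_Fp (n : ℕ) : Measurable (Fp n) := by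
  unfold Fp
  exact ((measurable_tew.comp (by fun_prop)).mul (by fun_prop)).mul (by fun_prop)

lemma integrable_Fp (n : ℕ) :
    Integrable (Fp n) (((volume : Measure ℝ).restrict (Ioi 0)).prod
      (Measure.pi fun _ : Fin n => (volume : Measure ℝ).restrict (Ioi 0))) := by
  have hdom : Integrable (fun p : ℝ × (Fin n → ℝ) =>
      Real.exp (-(1 * p.1)) * Real.exp (-(1 * ∑ j, p.2 j)))
      (((volume : Measure ℝ).restrict (Ioi 0)).prod
        (Measure.pi fun _ : Fin n => (volume : Measure ℝ).restrict (Ioi 0))) :=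
    Integrable.mul_prod (integrable_exp_neg_mul one_pos) (integrable_pi_exp one_pos)
  refine hdom.mono' (measurable_Fp n).aestronglyMeasurable (ae_of_all _ fun p => ?_)
  unfold Fp
  rw [Real.norm_eq_abs, abs_mul, abs_mul, abs_of_nonneg (tew_nonneg _),
    abs_of_pos (Real.exp_pos _), abs_of_pos (Real.exp_pos _)]
  have h0 : Real.exp (-(1 * p.1)) = Real.exp (-p.1) := by rw [one_mul]
  rw [h0]
  have h1 := tew_le_one (4 / 3 - 2 / (n : ℝ) * ∑ j, p.2 j + 2 * p.1)
  have h2 := Real.exp_pos (-p.1)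
  have h3 := Real.exp_pos (-(1 * ∑ j, p.2 j))
  calc truncExpWeight (4 / 3 - 2 / (n : ℝ) * ∑ j, p.2 j + 2 * p.1) * Real.exp (-p.1) *
        Real.exp (-(1 * ∑ j, p.2 j))
      ≤ 1 * Real.exp (-p.1) * Real.exp (-(1 * ∑ j, p.2 j)) := by gcongr
    _ = Real.exp (-p.1) * Real.exp (-(1 * ∑ j, p.2 j)) := by ring

theorem reduce_to_prod (n : ℕ) :
    ∫ x in Set.pi Set.univ (fun _ : Fin (n + 1) => Set.Ioi (0 : ℝ)),
        truncExpWeight (4 / 3 + ∑ i, (Fin.cons 2 (fun _ => -2 / (n : ℝ)) : Fin (n + 1) → ℝ) i * x i) *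
          Real.exp (-∑ i, x i)
      = ∫ p, Fp n p ∂(((volume : Measure ℝ).restrict (Ioi 0)).prod
          (Measure.pi fun _ : Fin n => (volume : Measure ℝ).restrict (Ioi 0))) := by
  rw [volume_pi, Measure.restrict_pi_pi]
  have hmp := (measurePreserving_piFinSuccAbove
    (fun _ : Fin (n + 1) => (volume : Measure ℝ).restrict (Ioi 0)) 0).symm
  rw [← hmp.integral_comp']
  refine integral_congr_ae (ae_of_all _ fun p => ?_)
  simp only [MeasurableEquiv.piFinSuccAbove_symm_apply, Fin.insertNthEquiv, Fin.sum_univ_succ,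
    Fin.insertNth_zero, Equiv.coe_fn_mk, Fin.cons_succ, Fin.zero_succAbove, cast_eq, Fin.cons_zero,
    Fp]
  have hs : ∑ x, -2 / (n : ℝ) * p.2 x = -(2 / (n : ℝ) * ∑ j, p.2 j) := by
    rw [Finset.mul_sum, ← Finset.sum_neg_distrib]
    exact Finset.sum_congr rfl (fun j _ => by ring)
  have ha : 4 / 3 + (2 * p.1 + -(2 / (n : ℝ) * ∑ j, p.2 j))
      = 4 / 3 - 2 / (n : ℝ) * ∑ j, p.2 j + 2 * p.1 := by ring
  rw [hs, ha, mul_assoc, ← Real.exp_add]
  congr 2
  ring

theorem main_bound (n : ℕ) (hn : 1 ≤ n) :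
    1 - 4 / 9 * Real.exp (2 / 3) * ((n : ℝ) / (n + 1)) ^ n ≤
      ∫ x in Set.pi Set.univ (fun _ : Fin (n + 1) => Set.Ioi (0 : ℝ)),
        truncExpWeight (4 / 3 + ∑ i, (Fin.cons 2 (fun _ => -2 / (n : ℝ)) : Fin (n + 1) → ℝ) i * x i) *
          Real.exp (-∑ i, x i) := by
  have hn0 : (0 : ℝ) < n := by exact_mod_cast hn
  rw [reduce_to_prod n, integral_prod_symm _ (integrable_Fp n)]
  have hr : (0 : ℝ) < 1 + 1 / (n : ℝ) := by positivity
  have hL : Integrable (fun x : Fin n → ℝ => Real.exp (-(1 * ∑ j, x j)) -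
      4 / 9 * Real.exp (2 / 3) * Real.exp (-((1 + 1 / (n : ℝ)) * ∑ j, x j)))
      (Measure.pi fun _ : Fin n => (volume : Measure ℝ).restrict (Ioi 0)) :=
    (integrable_pi_exp one_pos).sub ((integrable_pi_exp hr).const_mul _)
  have hI : ∫ x : Fin n → ℝ, (Real.exp (-(1 * ∑ j, x j)) -
      4 / 9 * Real.exp (2 / 3) * Real.exp (-((1 + 1 / (n : ℝ)) * ∑ j, x j)))
      ∂(Measure.pi fun _ : Fin n => (volume : Measure ℝ).restrict (Ioi 0))
      = 1 - 4 / 9 * Real.exp (2 / 3) * ((n : ℝ) / (n + 1)) ^ n := by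
    rw [integral_sub (integrable_pi_exp one_pos) ((integrable_pi_exp hr).const_mul _),
      integral_const_mul, integral_pi_exp one_pos, integral_pi_exp hr]
    have h1 : (1 / (1 + 1 / (n : ℝ))) = (n : ℝ) / (n + 1) := by field_simp
    rw [h1]; simp
  rw [← hI]
  refine integral_mono hL (integrable_Fp n).integral_prod_right (fun x => ?_)
  show _ ≤ ∫ t, Fp n (t, x) ∂((volume : Measure ℝ).restrict (Ioi 0))
  unfold Fp
  simp only []
  rw [integral_mul_const]
  have h1 := one_dim (4 / 3 - 2 / (n : ℝ) * ∑ j, x j)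
  have h3 := Real.exp_pos (-(1 * ∑ j, x j))
  have e : Real.exp (2 / 3) * Real.exp (-((1 + 1 / (n : ℝ)) * ∑ j, x j))
      = Real.exp ((4 / 3 - 2 / (n : ℝ) * ∑ j, x j) / 2) * Real.exp (-(1 * ∑ j, x j)) := by
    rw [← Real.exp_add, ← Real.exp_add]; congr 1; field_simp; ring
  calc Real.exp (-(1 * ∑ j, x j)) -
        4 / 9 * Real.exp (2 / 3) * Real.exp (-((1 + 1 / (n : ℝ)) * ∑ j, x j))
      = (1 - 4 / 9 * Real.exp ((4 / 3 - 2 / (n : ℝ) * ∑ j, x j) / 2)) *
          Real.exp (-(1 * ∑ j, x j)) := by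
        rw [mul_assoc, e]; ring
    _ ≤ (∫ t in Ioi (0 : ℝ), truncExpWeight (4 / 3 - 2 / (n : ℝ) * ∑ j, x j + 2 * t) *
          Real.exp (-t)) * Real.exp (-(1 * ∑ j, x j)) := by gcongr

/-- Second half of S0423: the supremum is approached. -/
theorem approx :
    ∀ ε : ℝ, 0 < ε → ∃ (N : ℕ) (a : Fin N → ℝ), 1 ≤ N ∧ ∑ i, a i = 0 ∧
      3 / 4 * Real.exp (4 / 3) - Real.exp 1 / 3 - ε <
        Real.exp (4 / 3) / (4 / 3) *
          ∫ x in Set.pi Set.univ (fun _ : Fin N => Set.Ioi (0 : ℝ)),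
            Crest.AlgGeometry.truncExpWeight (4 / 3 + ∑ i, a i * x i) * Real.exp (-∑ i, x i) := by
  intro ε hε
  obtain ⟨n, hn⟩ := exists_nat_gt (1 / ε)
  have hn0 : (0 : ℝ) < n := lt_trans (by positivity) hn
  have hn1 : 1 ≤ n := by exact_mod_cast hn0
  refine ⟨n + 1, Fin.cons 2 (fun _ => -2 / (n : ℝ)), by omega, ?_, ?_⟩
  · rw [Fin.sum_univ_succ]
    simp only [Fin.cons_zero, Fin.cons_succ, Finset.sum_const, Finset.card_univ, Fintype.card_fin,
      nsmul_eq_mul]
    field_simp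
    ring
  · have hb := main_bound n hn1
    have hq : ((n : ℝ) / (n + 1)) ^ n ≤ Real.exp (-1) * (1 + 1 / (n : ℝ)) := by
      have h1 : (n : ℝ) / (n + 1) ≤ Real.exp (-(1 / ((n : ℝ) + 1))) := by
        have h := Real.add_one_le_exp (-(1 / ((n : ℝ) + 1)))
        have e : (n : ℝ) / (n + 1) = -(1 / ((n : ℝ) + 1)) + 1 := by field_simp; ring
        rw [e]; exact h
      have h2 : ((n : ℝ) / (n + 1)) ^ (n + 1) ≤ Real.exp (-1) := by
        calc ((n : ℝ) / (n + 1)) ^ (n + 1) ≤ (Real.exp (-(1 / ((n : ℝ) + 1)))) ^ (n + 1) :=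
              pow_le_pow_left₀ (by positivity) h1 _
          _ = Real.exp (-1) := by
              rw [← Real.exp_nat_mul]; congr 1; push_cast; field_simp
      have h3 : ((n : ℝ) / (n + 1)) ^ n = ((n : ℝ) / (n + 1)) ^ (n + 1) * (1 + 1 / (n : ℝ)) := by
        rw [pow_succ]; field_simp
      rw [h3]
      have h4 : (0 : ℝ) ≤ 1 + 1 / (n : ℝ) := by positivity
      exact mul_le_mul_of_nonneg_right h2 h4
    have hABE : Real.exp (4 / 3) * Real.exp (2 / 3) * Real.exp (-1) = Real.exp 1 := by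
      rw [← Real.exp_add, ← Real.exp_add]; norm_num
    have hE : Real.exp 1 < 3 := by have := Real.exp_one_lt_d9; linarith
    have hinv : 1 / (n : ℝ) < ε := by rw [one_div_lt hn0 hε]; exact hn
    have hA := Real.exp_pos (4 / 3 : ℝ)
    have hB := Real.exp_pos (2 / 3 : ℝ)
    have step1 : Real.exp (4 / 3) / (4 / 3) *
        (1 - 4 / 9 * Real.exp (2 / 3) * ((n : ℝ) / (n + 1)) ^ n) ≤
        Real.exp (4 / 3) / (4 / 3) *
          ∫ x in Set.pi Set.univ (fun _ : Fin (n + 1) => Set.Ioi (0 : ℝ)),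
            truncExpWeight (4 / 3 + ∑ i, (Fin.cons 2 (fun _ => -2 / (n : ℝ)) : Fin (n + 1) → ℝ) i * x i) *
              Real.exp (-∑ i, x i) :=
      mul_le_mul_of_nonneg_left hb (by positivity)
    have step2 : Real.exp (4 / 3) * Real.exp (2 / 3) * ((n : ℝ) / (n + 1)) ^ n ≤
        Real.exp 1 + Real.exp 1 * (1 / (n : ℝ)) := by
      calc Real.exp (4 / 3) * Real.exp (2 / 3) * ((n : ℝ) / (n + 1)) ^ n
          ≤ Real.exp (4 / 3) * Real.exp (2 / 3) * (Real.exp (-1) * (1 + 1 / (n : ℝ))) :=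
            mul_le_mul_of_nonneg_left hq (by positivity)
        _ = (Real.exp (4 / 3) * Real.exp (2 / 3) * Real.exp (-1)) * (1 + 1 / (n : ℝ)) := by ring
        _ = Real.exp 1 + Real.exp 1 * (1 / (n : ℝ)) := by rw [hABE]; ring
    have h5 : Real.exp 1 * (1 / (n : ℝ)) < 3 * ε := by
      have hpos : 0 < 1 / (n : ℝ) := by positivity
      calc Real.exp 1 * (1 / (n : ℝ)) < 3 * (1 / (n : ℝ)) := mul_lt_mul_of_pos_right hE hpos
        _ < 3 * ε := by linarith
    have key : Real.exp (4 / 3) / (4 / 3) *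
        (1 - 4 / 9 * Real.exp (2 / 3) * ((n : ℝ) / (n + 1)) ^ n)
        = 3 / 4 * Real.exp (4 / 3) -
          1 / 3 * (Real.exp (4 / 3) * Real.exp (2 / 3) * ((n : ℝ) / (n + 1)) ^ n) := by ring
    linarith

end Crest.Agent.Helper8.S0423Approx
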