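import Mathlib
import Crest.Prelude.Def_TruncExpWeight
import Crest.Agent.Helper8.S0423Approx

set_option autoImplicit false

open MeasureTheory Set

namespace Crest.Agent.Helper8.S0423Degenerate

open Crest.AlgGeometry Crest.Agent.Helper8.S0423Approx

theorem integral_orthant_exp (N : ℕ) :
    ∫ x in Set.pi Set.univ (fun _ : Fin N => Set.Ioi (0 : ℝ)), Real.exp (-∑ i, x i) = 1 := by
  rw [volume_pi, Measure.restrict_pi_pi]
  have h := integral_pi_exp (n := N) (r := 1) one_pos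
  simpa using h

/-- the value of the S0423 functional at `a = 0` is `7/4`. -/
theorem value_zero (N : ℕ) (a : Fin N → ℝ) (ha : ∀ i, a i = 0) :
    Real.exp (4 / 3) / (4 / 3) *
          ∫ x in Set.pi Set.univ (fun _ : Fin N => Set.Ioi (0 : ℝ)),
            truncExpWeight (4 / 3 + ∑ i, a i * x i) * Real.exp (-∑ i, x i) = 7 / 4 := by
  have h1 : ∀ x : Fin N → ℝ,
      truncExpWeight (4 / 3 + ∑ i, a i * x i) = (1 + 4 / 3) * Real.exp (-(4 / 3)) := by
    intro x
    have : ∑ i, a i * x i = 0 := Finset.sum_eq_zero (fun i _ => by rw [ha i, zero_mul])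
    rw [this, add_zero, tew_of_pos (by norm_num)]
  simp_rw [h1]
  rw [integral_const_mul, integral_orthant_exp, mul_one]
  have e1 : Real.exp (4 / 3) * Real.exp (-(4 / 3)) = 1 := by rw [← Real.exp_add]; simp
  calc Real.exp (4 / 3) / (4 / 3) * ((1 + 4 / 3) * Real.exp (-(4 / 3)))
      = (Real.exp (4 / 3) * Real.exp (-(4 / 3))) * (7 / 4) := by ring
    _ = 7 / 4 := by rw [e1, one_mul]

theorem seven_fourths_le : (7 : ℝ) / 4 ≤ 3 / 4 * Real.exp (4 / 3) - Real.exp 1 / 3 := by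
  have e3 : Real.exp (4 / 3) = Real.exp 1 * Real.exp (1 / 3) := by
    rw [← Real.exp_add]; norm_num
  have e4 : (4 : ℝ) / 3 ≤ Real.exp (1 / 3) := by linarith [Real.add_one_le_exp (1 / 3 : ℝ)]
  have e5 : (2.7 : ℝ) < Real.exp 1 := by linarith [Real.exp_one_gt_d9]
  rw [e3]
  nlinarith [Real.exp_pos 1]

/-- **Degenerate case of S0423, first conjunct**: all coefficients zero. -/
theorem degenerate (N : ℕ) (a : Fin N → ℝ) (ha : ∀ i, a i = 0) :
    Real.exp (4 / 3) / (4 / 3) *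
          ∫ x in Set.pi Set.univ (fun _ : Fin N => Set.Ioi (0 : ℝ)),
            truncExpWeight (4 / 3 + ∑ i, a i * x i) * Real.exp (-∑ i, x i)
        ≤ 3 / 4 * Real.exp (4 / 3) - Real.exp 1 / 3 := by
  rw [value_zero N a ha]
  exact seven_fourths_le

/-- final algebra of the first conjunct: from `4/9 e^{-1/3} ≤ ∫ S·kern` and
`∫ g(…) e^{-Σx} = 1 - ∫ S·kern` to the stated bound. -/
theorem final_algebra {I J : ℝ} (hI : I = 1 - J) (hJ : 4 / 9 * Real.exp (-(1 / 3)) ≤ J) :
    Real.exp (4 / 3) / (4 / 3) * I ≤ 3 / 4 * Real.exp (4 / 3) - Real.exp 1 / 3 := by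
  have e1 : Real.exp (4 / 3) * Real.exp (-(1 / 3)) = Real.exp 1 := by
    rw [← Real.exp_add]; norm_num
  have hpos := Real.exp_pos (4 / 3)
  have h2 : Real.exp (4 / 3) * (4 / 9 * Real.exp (-(1 / 3))) ≤ Real.exp (4 / 3) * J :=
    mul_le_mul_of_nonneg_left hJ hpos.le
  subst hI
  nlinarith

end Crest.Agent.Helper8.S0423Degenerate
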